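import Vale.Agent.P133.H832.ChainDef
import Vale.Agent.P133.H832.Types
import Vale.Agent.P133.H832.Seq
import Vale.Agent.P133.H832.FieldDefs
import Vale.Agent.P133.H681.TopDimDef
import Vale.Agent.P133.R2.H778.PropC

/-!
P133 (helper307): a class of C*-algebras closed under upper semicontinuous fields over spaces with
property C.
-/

namespace Vale.Agent.P133.R2.H307

open Vale.Agent.P133.H832 Vale.Agent.P133.H681 Vale.Agent.P133.R2.H778

universe u

/-- The smallest class of C*-algebras that contains all C*-algebras whose closed two-sided ideals
are totally ordered by inclusion (for example simple ones) and all C*-algebras of topological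
dimension zero, and is closed under extensions, dense unions of closed two-sided ideals, bounded
products of arbitrary families, `A ↦ C₀(X, A)`, `X` nonempty locally compact Hausdorff, and
algebras of sections of upper semicontinuous fields over locally compact Hausdorff spaces whose
compact subsets have property C. -/
inductive BuiltC : (A : Type u) → [NonUnitalCStarAlgebra A] → [PartialOrder A] →
    [StarOrderedRing A] → Prop
  /-- totally ordered closed two-sided ideals -/
  | chain (A : Type u) [NonUnitalCStarAlgebra A] [PartialOrder A] [StarOrderedRing A]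
      (hA : IsChainC A) : BuiltC A
  /-- topological dimension zero -/
  | top (A : Type u) [NonUnitalCStarAlgebra A] [PartialOrder A] [StarOrderedRing A]
      (hA : IsTopDimZero A) : BuiltC A
  /-- extensions: `0 → J → A → B → 0` exact -/
  | ext (J A B : Type u) [NonUnitalCStarAlgebra J] [PartialOrder J] [StarOrderedRing J]
      [NonUnitalCStarAlgebra A] [PartialOrder A] [StarOrderedRing A]
      [NonUnitalCStarAlgebra B] [PartialOrder B] [StarOrderedRing B]
      (h : IsExtension J A B) (hJ : BuiltC J) (hB : BuiltC B) : BuiltC A
  /-- dense unions of closed two-sided ideals -/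
  | union (I : Type u) (J : I → Type u) (A : Type u) [∀ i, NonUnitalCStarAlgebra (J i)]
      [∀ i, PartialOrder (J i)] [∀ i, StarOrderedRing (J i)]
      [NonUnitalCStarAlgebra A] [PartialOrder A] [StarOrderedRing A]
      (h : IsDenseUnion J A) (hJ : ∀ i, BuiltC (J i)) : BuiltC A
  /-- bounded products -/
  | prod (I : Type u) (B : I → Type u) [∀ i, NonUnitalCStarAlgebra (B i)]
      [∀ i, PartialOrder (B i)] [∀ i, StarOrderedRing (B i)]
      [PartialOrder (BddProd B)] [StarOrderedRing (BddProd B)] (hB : ∀ i, BuiltC (B i)) :
      BuiltC (BddProd B)
  /-- continuous functions vanishing at infinity -/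
  | func (A : Type u) [NonUnitalCStarAlgebra A] [PartialOrder A] [StarOrderedRing A]
      (X : Type u) [TopologicalSpace X] [LocallyCompactSpace X] [T2Space X] [Nonempty X]
      [PartialOrder (FunAlg X A)] [StarOrderedRing (FunAlg X A)] (hA : BuiltC A) :
      BuiltC (FunAlg X A)
  /-- sections of an upper semicontinuous field with fibres `B t` -/
  | field (X : Type u) [TopologicalSpace X] [LocallyCompactSpace X] [T2Space X]
      (hX : ∀ K : Set X, IsCompact K → PropertyC K) (B : X → Type u)
      [∀ t, NonUnitalCStarAlgebra (B t)] [∀ t, PartialOrder (B t)] [∀ t, StarOrderedRing (B t)]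
      (A : Type u) [NonUnitalCStarAlgebra A] [PartialOrder A] [StarOrderedRing A]
      (h : IsSectionAlgebra B A) (hB : ∀ t, BuiltC (B t)) : BuiltC A

end Vale.Agent.P133.R2.H307
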