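import Vale.Agent.P133.R2.H307.Main2
import Vale.Agent.P133.R2.H712.Sel
import Vale.Agent.P133.R2.H438.Imp
import Vale.Agent.P133.R2.H369.Dense
import Vale.Agent.P133.R2.H50.Fib
import Vale.Agent.P133.R2.H704.Loc2
import Vale.Agent.P133.R2.H321.Ext
import Vale.Agent.P133.R2.H778.PiGen
import Vale.Agent.P133.R2.H28.Conv
import Vale.Agent.P133.H681.Wpi
import Vale.Agent.P133.H832.Bridge

/-!
P133 (helper307, rows of helper712, helper438, helper369, helper50, helper704, helper321 and
helper778): upper semicontinuous fields over spaces with property C.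
-/

open scoped ComplexOrder

namespace Vale.Agent.P133.R2.H307

open Vale.Agent.P133.H832 Vale.Agent.P133.H681 Vale.Agent.P133.Statement Vale.Agent.P133F
  Vale.Agent.P133.R2.H28 Vale.Agent.P133.R2.H778

universe u v

theorem fieldC {X : Type v} [TopologicalSpace X] [LocallyCompactSpace X] [T2Space X]
    {B : X → Type u} [∀ t, NonUnitalCStarAlgebra (B t)] [∀ t, PartialOrder (B t)]
    [∀ t, StarOrderedRing (B t)] {A : Type u} [NonUnitalCStarAlgebra A] [PartialOrder A]
    [StarOrderedRing A] (hX : ∀ K : Set X, IsCompact K → PropertyC K)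
    (h : IsSectionAlgebra B A) :
    (PurelyInfinite A ↔ ∀ t, PurelyInfinite (B t)) ∧ ((∀ t, Coincide (B t)) → Coincide A) := by
  have key : PurelyInfinite A ↔ ∀ t, PurelyInfinite (B t) := by
    refine ⟨fun hA t => fibres_pi h hA t, fun hB => ?_⟩
    refine pi_of_twoOrth_fields hX h ?_ hB
    obtain ⟨π, h1, h2, h3, h4⟩ := h
    exact twoOrth_iff.2 (nowhere_scalar_of2 Vale.Agent.P133.R2.H712.Sel.specSel
      Vale.Agent.P133.R2.H438.specImp
      (Vale.Agent.P133.R2.H50.specFib Vale.Agent.P133.R2.H369.specDense)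
      Vale.Agent.P133.R2.H704.specLoc2 specExt hX h1 h2 h3 h4 hB)
  refine ⟨key, fun hB => coincide_of fun hA => key.2 fun t => (hB t).1.1 ?_⟩
  obtain ⟨π, h1, -⟩ := h
  exact wpi_of_surj (π t) (h1 t) hA

end Vale.Agent.P133.R2.H307
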