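import Vale.Agent.P133.R2.H307.BuiltC
import Vale.Agent.P133.R2.H307.Final2
import Vale.Agent.P133.H832.BuiltIB

/-!
P133 (helper307): the three notions of pure infiniteness coincide for the class `BuiltC`.
-/

namespace Vale.Agent.P133.R2.H307

open Vale.Agent.P133.Statement Vale.Agent.P133F Vale.Agent.P133.H681 Vale.Agent.P133.H832
  Vale.Agent.P133.R2.H778

universe u

theorem builtC_wpi {A : Type u} [NonUnitalCStarAlgebra A] [PartialOrder A] [StarOrderedRing A]
    (hA : BuiltC A) : WeaklyPurelyInfinite A → PurelyInfinite A := by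
  induction hA with
  | chain A hA => exact builtI_wpi (builtI_of (Or.inl hA))
  | top A hA => exact builtI_wpi (builtI_of (Or.inr hA))
  | ext J A B h _ _ hJ hB =>
    intro hA
    have h2 := (wpi_ext h).2 hA
    exact (wpi_ext h).1.2 ⟨hJ h2.1, hB h2.2⟩
  | union I J A h _ hJ =>
    obtain ⟨φ, hφ, hid, hd⟩ := h
    exact b_union φ hφ hid hd hJ
  | prod I B _ hB => exact wpi_bddProd B hB
  | func A X _ hA => exact wpi_funAlg A X hA
  | field X hX B A h _ hB =>
    refine fun hA => (fieldC hX h).1.2 fun t => hB t ?_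
    obtain ⟨π, h1, -⟩ := h
    exact wpi_of_surj (π t) (h1 t) hA

theorem builtC_coincide {A : Type u} [NonUnitalCStarAlgebra A] [PartialOrder A]
    [StarOrderedRing A] (hA : BuiltC A) : Coincide A :=
  coincide_of (builtC_wpi hA)

end Vale.Agent.P133.R2.H307
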