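import Vale.Agent.P133.H832.TameDef
import Mathlib.Topology.ContinuousMap.Basic

/-!
P133 (helper307): definitions for algebras with Hausdorff spectrum having property C.
-/

namespace Vale.Agent.P133.R2.H307

open Vale.Agent.P133.H832

universe u v

/-- Property C of Haver and of Addis and Gresham: for every sequence `U 0, U 1, …` of open covers
of `X` there are families `V 0, V 1, …` of pairwise disjoint open sets, every member of `V i`
being contained in a member of `U i`, such that `V 0 ∪ V 1 ∪ …` covers `X`. -/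
def HasPropertyC (X : Type v) [TopologicalSpace X] : Prop :=
  ∀ U : ℕ → Set (Set X), (∀ i, (∀ u ∈ U i, IsOpen u) ∧ ⋃₀ U i = Set.univ) →
    ∃ V : ℕ → Set (Set X), (∀ i, (∀ v ∈ V i, IsOpen v ∧ ∃ u ∈ U i, v ⊆ u) ∧
      (V i).PairwiseDisjoint id) ∧ (⋃ i, ⋃₀ V i) = Set.univ

/-- The maps `π t` present `A` as the algebra of sections of a continuous field of C*-algebras
over `X` with fibres `B t`: they are surjective, the norm of `a` is at most the supremum of the
norms of the `π t a`, the functions `t ↦ ‖π t a‖` are continuous, and for every continuous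
`f : X → [0, 1]` and `a` in `A` the section `t ↦ f t • π t a` is in `A`. -/
def IsField {X : Type v} [TopologicalSpace X] {B : X → Type u}
    [∀ t, NonUnitalCStarAlgebra (B t)] {A : Type u} [NonUnitalCStarAlgebra A]
    (π : ∀ t, A →⋆ₙₐ[ℂ] B t) : Prop :=
  (∀ t, Function.Surjective (π t)) ∧
    (∀ (a : A) (r : ℝ), 0 ≤ r → (∀ t, ‖π t a‖ ≤ r) → ‖a‖ ≤ r) ∧
    (∀ a : A, Continuous fun t => ‖π t a‖) ∧
    ∀ f : C(X, ℝ), (∀ t, 0 ≤ f t ∧ f t ≤ 1) → ∀ a : A, ∃ b : A, ∀ t, π t b = (f t : ℂ) • π t a

/-- `A` is the algebra of sections of a continuous field over `X` with fibres `B t`. -/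
def IsContinuousField {X : Type v} [TopologicalSpace X] (B : X → Type u)
    [∀ t, NonUnitalCStarAlgebra (B t)] (A : Type u) [NonUnitalCStarAlgebra A] : Prop :=
  ∃ π : ∀ t, A →⋆ₙₐ[ℂ] B t, IsField π

/-- `B` has no closed two-sided ideals except `0` and `B` (it is simple or zero). -/
def IsSimpleOrZero (B : Type u) [NonUnitalCStarAlgebra B] : Prop :=
  ∀ J : Submodule ℂ B, IsClosedIdeal J → J = ⊥ ∨ J = ⊤

end Vale.Agent.P133.R2.H307
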