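import Vale.Agent.P133.R2.H307.Spec
import Vale.Agent.P133.R2.H28.Defs
import Mathlib.Analysis.CStarAlgebra.ContinuousFunctionalCalculus.NonUnital

/-!
P133 (helper307): the seminorms for the theorem on property C.
-/

open scoped ComplexOrder

namespace Vale.Agent.P133.R2.H307

open Vale.Agent.P133.H832

universe u v

section

variable {X : Type v} [TopologicalSpace X] {B : X → Type u}
  [∀ t, NonUnitalCStarAlgebra (B t)] {A : Type u} [NonUnitalCStarAlgebra A]
  (π : ∀ t, A →⋆ₙₐ[ℂ] B t)

/-- the distance of `a y a a` from the real multiples of `a`, at the point `t` -/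
noncomputable def gap (a : A) (t : X) (y : A) : ℝ :=
  ⨅ l : ℝ, ‖π t (a * y * a * a - l • a)‖

theorem bdd (a : A) (t : X) (y : A) :
    BddBelow (Set.range fun l : ℝ => ‖π t (a * y * a * a - l • a)‖) :=
  ⟨0, by rintro _ ⟨l, rfl⟩; exact norm_nonneg _⟩

theorem gap_le (a : A) (t : X) (y : A) (l : ℝ) :
    gap π a t y ≤ ‖π t (a * y * a * a - l • a)‖ := ciInf_le (bdd π a t y) l

theorem gap_nonneg (a : A) (t : X) (y : A) : 0 ≤ gap π a t y :=
  le_ciInf fun _ => norm_nonneg _

theorem exists_of_gap_lt {a : A} {t : X} {y : A} {r : ℝ} (h : gap π a t y < r) :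
    ∃ l : ℝ, ‖π t (a * y * a * a - l • a)‖ < r := exists_lt_of_ciInf_lt h

theorem gap_add (a : A) (t : X) (y z : A) :
    gap π a t (y + z) ≤ gap π a t y + gap π a t z := by
  refine le_of_forall_pos_lt_add fun ε hε => ?_
  obtain ⟨l, hl⟩ := exists_of_gap_lt π (show gap π a t y < gap π a t y + ε / 2 by linarith)
  obtain ⟨k, hk⟩ := exists_of_gap_lt π (show gap π a t z < gap π a t z + ε / 2 by linarith)
  have h1 : a * (y + z) * a * a - (l + k) • a =
      (a * y * a * a - l • a) + (a * z * a * a - k • a) := by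
    simp only [mul_add, add_mul, add_smul]; abel
  calc gap π a t (y + z) ≤ ‖π t (a * (y + z) * a * a - (l + k) • a)‖ := gap_le π a t _ _
    _ ≤ ‖π t (a * y * a * a - l • a)‖ + ‖π t (a * z * a * a - k • a)‖ := by
      rw [h1, map_add]; exact norm_add_le _ _
    _ < gap π a t y + gap π a t z + ε := by linarith

theorem map_real_smul (t : X) (c : ℝ) (x : A) : π t (c • x) = c • π t x := by
  have h1 : c • x = (c : ℂ) • x := (Complex.coe_smul c x).symm
  have h2 : c • π t x = (c : ℂ) • π t x := (Complex.coe_smul c (π t x)).symm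
  rw [h1, h2, map_smul]

theorem gap_smul_le (a : A) (t : X) (c : ℝ) (y : A) :
    gap π a t (c • y) ≤ |c| * gap π a t y := by
  rw [gap, gap, Real.mul_iInf_of_nonneg (abs_nonneg c)]
  refine le_ciInf fun l => ?_
  refine (ciInf_le (bdd π a t (c • y)) (c * l)).trans (le_of_eq ?_)
  have h1 : a * (c • y) * a * a - (c * l) • a = c • (a * y * a * a - l • a) := by
    rw [smul_sub, smul_smul, mul_smul_comm, smul_mul_assoc, smul_mul_assoc]
  rw [h1, map_real_smul, norm_smul, Real.norm_eq_abs]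

theorem gap_smul (a : A) (t : X) (c : ℝ) (y : A) :
    gap π a t (c • y) = |c| * gap π a t y := by
  refine le_antisymm (gap_smul_le π a t c y) ?_
  rcases eq_or_ne c 0 with rfl | hc
  · simpa using gap_nonneg π a t ((0 : ℝ) • y)
  · have h1 := gap_smul_le π a t c⁻¹ (c • y)
    rw [smul_smul, inv_mul_cancel₀ hc, one_smul, abs_inv] at h1
    have h2 : 0 < |c| := abs_pos.2 hc
    calc |c| * gap π a t y ≤ |c| * (|c|⁻¹ * gap π a t (c • y)) :=
          mul_le_mul_of_nonneg_left h1 h2.le
      _ = gap π a t (c • y) := by rw [← mul_assoc, mul_inv_cancel₀ h2.ne', one_mul]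

theorem gap_bound (a : A) (t : X) (y : A) : gap π a t y ≤ (‖a‖ * ‖a‖ * ‖a‖) * ‖y‖ := by
  refine (gap_le π a t y 0).trans ?_
  rw [zero_smul, sub_zero]
  refine (NonUnitalStarAlgHom.norm_apply_le (π t) _).trans ?_
  calc ‖a * y * a * a‖ ≤ ‖a * y * a‖ * ‖a‖ := norm_mul_le _ _
    _ ≤ (‖a‖ * ‖y‖ * ‖a‖) * ‖a‖ := by
      gcongr
      refine (norm_mul_le _ _).trans ?_
      gcongr
      exact norm_mul_le _ _
    _ = (‖a‖ * ‖a‖ * ‖a‖) * ‖y‖ := by ring

variable {π}

theorem continuous_norm_line (hπ : ∀ a : A, Continuous fun t => ‖π t a‖) (x a : A) :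
    Continuous fun q : X × ℝ => ‖π q.1 (x - q.2 • a)‖ := by
  rw [continuous_iff_continuousAt]
  rintro ⟨t, l⟩
  rw [ContinuousAt, tendsto_iff_dist_tendsto_zero]
  have h1 : Filter.Tendsto (fun q : X × ℝ => |q.2 - l| * ‖a‖ +
      dist ‖π q.1 (x - l • a)‖ ‖π t (x - l • a)‖) (nhds (t, l)) (nhds 0) := by
    have e1 : Continuous fun q : X × ℝ => |q.2 - l| * ‖a‖ +
        dist ‖π q.1 (x - l • a)‖ ‖π t (x - l • a)‖ :=
      ((continuous_abs.comp (continuous_snd.sub continuous_const)).mul continuous_const).add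
        (((hπ (x - l • a)).comp continuous_fst).dist continuous_const)
    have e2 := e1.tendsto (t, l)
    simpa using e2
  refine squeeze_zero (fun _ => dist_nonneg) (fun q => ?_) h1
  refine (dist_triangle _ ‖π q.1 (x - l • a)‖ _).trans (add_le_add ?_ le_rfl)
  rw [Real.dist_eq]
  refine (abs_norm_sub_norm_le _ _).trans ?_
  rw [← map_sub, sub_sub_sub_cancel_left, ← sub_smul]
  refine (NonUnitalStarAlgHom.norm_apply_le (π q.1) _).trans ?_
  rw [norm_smul, Real.norm_eq_abs, abs_sub_comm]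

theorem isClosed_gap (hπ : ∀ a : A, Continuous fun t => ‖π t a‖) (a : A) {δ : ℝ} (hδ : 0 < δ)
    (y : A) (r : ℝ) : IsClosed {t | t ∈ {t | δ ≤ ‖π t a‖} ∧ gap π a t y ≤ r} := by
  set x : A := a * y * a * a with hx
  set L : ℝ := (|r| + 1 + ‖x‖) / δ with hL
  have key : {t | t ∈ {t | δ ≤ ‖π t a‖} ∧ gap π a t y ≤ r} =
      ⋂ ε : {ε : ℝ // 0 < ε ∧ ε ≤ 1}, Prod.fst '' {q : X × Set.Icc (-L) L |
        δ ≤ ‖π q.1 a‖ ∧ ‖π q.1 (x - (q.2 : ℝ) • a)‖ ≤ r + ε} := by
    ext t
    simp only [Set.mem_setOf_eq, Set.mem_iInter, Set.mem_image, Prod.exists, exists_and_right,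
      exists_eq_right, Subtype.forall]
    constructor
    · rintro ⟨h1, h2⟩ ε ⟨hε, hε1⟩
      obtain ⟨l, hl⟩ := exists_of_gap_lt π (show gap π a t y < r + ε by linarith)
      rw [← hx] at hl
      have h3 : |l| * δ ≤ |r| + 1 + ‖x‖ := by
        have e1 : ‖π t (l • a)‖ ≤ ‖π t (x - l • a)‖ + ‖π t x‖ := by
          have : π t (l • a) = π t x - π t (x - l • a) := by rw [← map_sub, sub_sub_cancel]
          rw [this]
          refine (norm_sub_le _ _).trans (by linarith)
        have e2 : |l| * δ ≤ ‖π t (l • a)‖ := by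
          rw [map_real_smul, norm_smul, Real.norm_eq_abs]
          exact mul_le_mul_of_nonneg_left h1 (abs_nonneg l)
        have e3 := NonUnitalStarAlgHom.norm_apply_le (π t) x
        have e4 := le_abs_self r
        linarith
      have h4 : |l| ≤ L := by rw [hL, le_div_iff₀ hδ]; exact h3
      exact ⟨⟨l, abs_le.1 h4⟩, h1, hl.le⟩
    · intro h
      obtain ⟨l, h1, -⟩ := h 1 ⟨one_pos, le_rfl⟩
      refine ⟨h1, le_of_forall_pos_le_add fun ε hε => ?_⟩
      obtain ⟨k, -, hk⟩ := h (min ε 1) ⟨lt_min hε one_pos, min_le_right _ _⟩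
      have := gap_le π a t y (k : ℝ)
      rw [← hx] at this
      exact this.trans (hk.trans (by gcongr; exact min_le_left _ _))
  rw [key]
  refine isClosed_iInter fun ε => isClosedMap_fst_of_compactSpace _ ?_
  refine IsClosed.inter ?_ ?_
  · exact isClosed_le continuous_const ((hπ a).comp continuous_fst)
  · exact isClosed_le ((continuous_norm_line hπ x a).comp
      (continuous_fst.prodMk (continuous_subtype_val.comp continuous_snd))) continuous_const

theorem gap_pos {a : A} {t : X} {y : A}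
    (h : π t (a * y * a * a) ∉ Submodule.span ℝ {π t a}) : 0 < gap π a t y := by
  rcases (gap_nonneg π a t y).lt_or_eq with h1 | h1
  · exact h1
  · exfalso
    refine h ?_
    have hc : IsClosed ((Submodule.span ℝ {π t a} : Submodule ℝ (B t)) : Set (B t)) :=
      Submodule.closed_of_finiteDimensional _
    have h2 : π t (a * y * a * a) ∈
        closure ((Submodule.span ℝ {π t a} : Submodule ℝ (B t)) : Set (B t)) := by
      refine Metric.mem_closure_iff.2 fun ε hε => ?_
      obtain ⟨l, hl⟩ := exists_of_gap_lt π (show gap π a t y < ε by linarith)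
      refine ⟨l • π t a, Submodule.smul_mem _ _ (Submodule.mem_span_singleton_self _), ?_⟩
      rw [dist_eq_norm, ← map_real_smul, ← map_sub]
      exact hl
    rwa [hc.closure_eq] at h2

end

end Vale.Agent.P133.R2.H307
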