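import Vale.Agent.P133.R2.H307.Gap
import Mathlib.Analysis.CStarAlgebra.Hom
import Mathlib.Analysis.CStarAlgebra.ContinuousFunctionalCalculus.Isometric
import Mathlib.Analysis.CStarAlgebra.ContinuousFunctionalCalculus.Instances

/-!
P133 (helper307): nowhere scalar elements for continuous fields with simple fibres over spaces
with property C, from the three rows.
-/

open scoped ComplexOrder

namespace Vale.Agent.P133.R2.H307

open Vale.Agent.P133.H832 Vale.Agent.P133.Statement Vale.Agent.P133F Vale.Agent.P133.R2.H28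

universe u v

section

variable {X : Type v} [TopologicalSpace X] {B : X → Type u}
  [∀ t, NonUnitalCStarAlgebra (B t)] {A : Type u} [NonUnitalCStarAlgebra A]
  {π : ∀ t, A →⋆ₙₐ[ℂ] B t}

theorem isClosedIdeal_map {t : X} (hs : Function.Surjective (π t)) {P : Submodule ℂ A}
    (hP : IsClosedIdeal P) :
    IsClosedIdeal (P.map (π t : A →ₗ[ℂ] B t)).topologicalClosure := by
  refine ⟨Submodule.isClosed_topologicalClosure _, fun b x hx => ?_⟩
  obtain ⟨a, rfl⟩ := hs b
  constructor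
  · refine map_mem_closure (f := fun z => π t a * z) (continuous_const.mul continuous_id) hx ?_
    rintro _ ⟨p, hp, rfl⟩
    exact ⟨a * p, (hP.2 a p hp).1, map_mul (π t) a p⟩
  · refine map_mem_closure (f := fun z => z * π t a) (continuous_id.mul continuous_const) hx ?_
    rintro _ ⟨p, hp, rfl⟩
    exact ⟨p * a, (hP.2 a p hp).2, map_mul (π t) p a⟩

theorem map_nonneg' [PartialOrder A] [StarOrderedRing A] {t : X} [PartialOrder (B t)]
    [StarOrderedRing (B t)] {a : A} (ha : 0 ≤ a) : 0 ≤ π t a := by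
  obtain ⟨k, rfl⟩ := CStarAlgebra.nonneg_iff_eq_star_mul_self.1 ha
  rw [map_mul, map_star]
  exact star_mul_self_nonneg _

theorem map_cut_eq_zero [PartialOrder A] [StarOrderedRing A] {t : X} {a : A} (ha : 0 ≤ a)
    {δ : ℝ} (hδ : 0 < δ) (h : ‖π t a‖ < δ) : π t (cut a δ) = 0 := by
  have hsa : IsSelfAdjoint a := IsSelfAdjoint.of_nonneg ha
  have hsb : IsSelfAdjoint (π t a) := hsa.map (π t)
  have hf0 : (fun s : ℝ => max (s - δ) 0) 0 = 0 := by simp [hδ.le]
  have hf : Continuous (fun s : ℝ => max (s - δ) 0) := by fun_prop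
  have h2 : π t (cfcₙ (fun s : ℝ => max (s - δ) 0) a) =
      cfcₙ (fun s : ℝ => max (s - δ) 0) (π t a) :=
    NonUnitalStarAlgHomClass.map_cfcₙ (π t) _ a (hf := hf.continuousOn) (hf₀ := hf0)
      (hφ := AddMonoidHomClass.continuous_of_bound (π t) 1 fun x => by
        simpa using NonUnitalStarAlgHom.norm_apply_le (π t) x) (ha := hsa) (hφa := hsb)
  rw [cut, h2, ← norm_le_zero_iff]
  refine norm_cfcₙ_le fun x hx => ?_
  have h3 : ‖x‖ ≤ ‖π t a‖ := by
    have := norm_apply_le_norm_cfcₙ (fun x : ℝ => x) (π t a) hx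
    rwa [cfcₙ_id' ℝ (π t a)] at this
  have h4 : x ≤ δ := (le_abs_self x).trans (h3.trans h.le)
  rw [max_eq_right (by linarith), norm_zero]

/-- the linear map `y ↦ a y a a` at `t` -/
noncomputable def lmap (π : ∀ t, A →⋆ₙₐ[ℂ] B t) (a : A) (t : X) :
    selfAdjoint.submodule ℝ A →ₗ[ℝ] B t where
  toFun y := π t (a * (y : A) * a * a)
  map_add' y z := by
    rw [Submodule.coe_add, mul_add, add_mul, add_mul, map_add]
  map_smul' c y := by
    rw [Submodule.coe_smul, mul_smul_comm, smul_mul_assoc, smul_mul_assoc, map_real_smul]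
    rfl

/-- symmetrization -/
theorem exists_lift_sa {t : X} (hs : Function.Surjective (π t)) {y : B t}
    (hy : IsSelfAdjoint y) : ∃ x : A, IsSelfAdjoint x ∧ π t x = y := by
  obtain ⟨w, rfl⟩ := hs y
  refine ⟨(1 / 2 : ℝ) • (w + star w), ?_, ?_⟩
  · exact IsSelfAdjoint.smul (star_trivial (1 / 2 : ℝ)) (IsSelfAdjoint.add_star_self w)
  · rw [map_real_smul, map_add, map_star, hy.star_eq, ← two_smul ℝ (π t w), smul_smul]
    norm_num

theorem exists_mul_sa (hπ : IsField π) {f : C(X, ℝ)} (hf : ∀ t, 0 ≤ f t ∧ f t ≤ 1) {y : A}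
    (hy : IsSelfAdjoint y) : ∃ x : A, IsSelfAdjoint x ∧ ∀ t, π t x = f t • π t y := by
  obtain ⟨b, hb⟩ := hπ.2.2.2 f hf y
  refine ⟨(1 / 2 : ℝ) • (b + star b), ?_, fun t => ?_⟩
  · exact IsSelfAdjoint.smul (star_trivial (1 / 2 : ℝ)) (IsSelfAdjoint.add_star_self b)
  · have h1 : π t b = f t • π t y := by rw [hb, Complex.coe_smul]
    have h2 : star (f t • π t y) = f t • π t y := by
      rw [star_smul, star_trivial, ← map_star, hy.star_eq]
    rw [map_real_smul, map_add, map_star, h1, h2, ← two_smul ℝ (f t • π t y), smul_smul]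
    norm_num

end

theorem nowhere_scalar_of (hT : SpecTop.{v, u}) (hI : SpecInf.{u}) (hL : SpecLoc.{u, v})
    {X : Type v} [TopologicalSpace X] [CompactSpace X] [T2Space X] {B : X → Type u}
    [∀ t, NonUnitalCStarAlgebra (B t)] [∀ t, PartialOrder (B t)] [∀ t, StarOrderedRing (B t)]
    {A : Type u} [NonUnitalCStarAlgebra A] [PartialOrder A] [StarOrderedRing A]
    {π : ∀ t, A →⋆ₙₐ[ℂ] B t} (hX : HasPropertyC X) (hπ : IsField π)
    (hs : ∀ t, IsSimpleOrZero (B t)) (hw : ∀ t, WeaklyPurelyInfinite (B t)) :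
    ∀ a : A, 0 ≤ a → ∀ δ : ℝ, 0 < δ → ∃ d : A, IsSelfAdjoint d ∧ d ∈ Her a ∧
      ∀ P : Submodule ℂ A, IsClosedIdeal P → cut a δ ∉ P → ∀ l : ℝ, d * a - l • a ∉ P := by
  intro a ha δ hδ
  have hsa : IsSelfAdjoint a := IsSelfAdjoint.of_nonneg ha
  obtain ⟨m, φ, y, hφ, hy⟩ := hT X hX {t | δ ≤ ‖π t a‖}
    (isClosed_le continuous_const (hπ.2.2.1 a)) (selfAdjoint.submodule ℝ A)
    (fun t y => gap π a t (y : A)) (‖a‖ * ‖a‖ * ‖a‖) (by positivity)
    (fun t y z => gap_add π a t _ _) (fun t c y => gap_smul π a t c _)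
    (fun t y => gap_bound π a t _) (fun y r => isClosed_gap hπ.2.2.1 a hδ _ r) (by
      intro t ht S hS
      have ht' : δ ≤ ‖π t a‖ := ht
      have hne : π t a ≠ 0 := by
        intro h0
        rw [h0, norm_zero] at ht'
        linarith
      have : FiniteDimensional ℝ (S.map (lmap π a t)) := inferInstance
      obtain ⟨y', hy', hy⟩ := hI (B t) (hw t) (hs t) (π t a) (map_nonneg' ha) hne
        (S.map (lmap π a t) ⊔ Submodule.span ℝ {π t a}) inferInstance
      obtain ⟨x, hx, rfl⟩ := exists_lift_sa (hπ.1 t) hy'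
      refine ⟨⟨x, hx⟩, fun s hs => gap_pos fun hmem => hy ?_⟩
      have h1 : π t a * π t x * π t a * π t a =
          π t (a * ((x : A) + (s : A)) * a * a) - lmap π a t s := by
        have h2 : lmap π a t s = π t (a * (s : A) * a * a) := rfl
        rw [h2, ← map_sub, mul_add, add_mul, add_mul, add_sub_cancel_right, map_mul, map_mul,
          map_mul]
      rw [h1]
      refine Submodule.sub_mem _ ?_ ?_
      · exact Submodule.mem_sup_right hmem
      · exact Submodule.mem_sup_left ⟨s, hs, rfl⟩)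
  have hex : ∀ i, ∃ x : A, IsSelfAdjoint x ∧ ∀ t, π t x = φ i t • π t (y i : A) :=
    fun i => exists_mul_sa hπ (hφ i) (y i).2
  choose x hx1 hx2 using hex
  set Y : A := ∑ i, x i with hY
  have hYsa : IsSelfAdjoint Y := by
    rw [IsSelfAdjoint, hY, star_sum]
    exact Finset.sum_congr rfl fun i _ => (hx1 i).star_eq
  have hYt : ∀ t, π t Y = π t (((∑ i, φ i t • y i : selfAdjoint.submodule ℝ A)) : A) := by
    intro t
    rw [hY, map_sum, Submodule.coe_sum, map_sum]
    exact Finset.sum_congr rfl fun i _ => by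
      rw [hx2, Submodule.coe_smul, map_real_smul]
  refine ⟨a * Y * a, ?_, subset_closure ⟨Y, rfl⟩, ?_⟩
  · rw [IsSelfAdjoint, star_mul, star_mul, hsa.star_eq, hYsa.star_eq, mul_assoc]
  intro P hP hc l hmem
  have hnot : ¬ ∀ t, ∀ ε : ℝ, 0 < ε → ∃ p ∈ P, ‖π t (cut a δ - p)‖ < ε :=
    fun h => hc (hL X B A π hπ P hP _ h)
  push Not at hnot
  obtain ⟨t, ε, hε, h1⟩ := hnot
  have hP0 : ∀ p ∈ P, π t p = 0 := by
    rcases hs t _ (isClosedIdeal_map (hπ.1 t) hP) with hJ | hJ
    · intro p hp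
      have h2 : π t p ∈ (P.map (π t : A →ₗ[ℂ] B t)).topologicalClosure :=
        Submodule.le_topologicalClosure _ ⟨p, hp, rfl⟩
      rw [hJ] at h2
      exact h2
    · exfalso
      have h2 : π t (cut a δ) ∈ (P.map (π t : A →ₗ[ℂ] B t)).topologicalClosure := by
        rw [hJ]; trivial
      obtain ⟨_, ⟨p, hp, rfl⟩, h3⟩ := Metric.mem_closure_iff.1 h2 ε hε
      have h4 := h1 p hp
      rw [map_sub] at h4
      rw [dist_eq_norm] at h3
      exact absurd h3 (not_lt.2 h4)
  have h2 : ε ≤ ‖π t (cut a δ)‖ := by simpa using h1 0 P.zero_mem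
  have h3 : δ ≤ ‖π t a‖ := by
    by_contra hlt
    rw [map_cut_eq_zero ha hδ (not_le.1 hlt), norm_zero] at h2
    linarith
  have h4 := hy t h3
  have h5 := gap_le π a t (((∑ i, φ i t • y i : selfAdjoint.submodule ℝ A)) : A) l
  have h6 : π t (a * (((∑ i, φ i t • y i : selfAdjoint.submodule ℝ A)) : A) * a * a - l • a) =
      π t (a * Y * a * a - l • a) := by
    rw [map_sub, map_sub, map_mul, map_mul, map_mul, ← hYt t, map_mul, map_mul, map_mul]
  rw [h6, hP0 _ hmem, norm_zero] at h5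
  exact absurd h4 (not_lt.2 h5)

end Vale.Agent.P133.R2.H307
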