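import Vale.Agent.P133.R2.H307.Spec2
import Vale.Agent.P133.R2.H307.Main

/-!
P133 (helper307): fields over locally compact spaces with property C, from the rows of Spec2.
-/

open scoped ComplexOrder

namespace Vale.Agent.P133.R2.H307

open Vale.Agent.P133.H832 Vale.Agent.P133.Statement Vale.Agent.P133F Vale.Agent.P133.R2.H28

universe u v

section

variable {A : Type u} [NonUnitalCStarAlgebra A]

theorem her_of_herS {a d : A} (hd : d ∈ herS a) : d ∈ Her a ∧ IsSelfAdjoint d := by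
  obtain ⟨h1, h2⟩ := hd
  refine ⟨?_, h2⟩
  have h3 : d ∈ closure ((LinearMap.range
      ((LinearMap.mulLeft ℝ a).comp (LinearMap.mulRight ℝ a)) : Submodule ℝ A) : Set A) := h1
  refine closure_mono ?_ h3
  rintro _ ⟨w, rfl⟩
  exact ⟨w, by simp [mul_assoc]⟩

theorem continuous_of_hom {B : Type u} [NonUnitalCStarAlgebra B] (π : A →⋆ₙₐ[ℂ] B) :
    Continuous π :=
  AddMonoidHomClass.continuous_of_bound π 1 fun x => by
    simpa using NonUnitalStarAlgHom.norm_apply_le π x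

theorem map_ramp [PartialOrder A] [StarOrderedRing A] {B : Type u} [NonUnitalCStarAlgebra B]
    [PartialOrder B] [StarOrderedRing B] (π : A →⋆ₙₐ[ℂ] B) {a : A} (ha : IsSelfAdjoint a)
    (δ : ℝ) : π (ramp δ a) = ramp δ (π a) := by
  have hf0 : (fun s : ℝ => min (max (2 * s / δ - 1) 0) 1) 0 = 0 := by simp
  have hf : Continuous (fun s : ℝ => min (max (2 * s / δ - 1) 0) 1) := by fun_prop
  exact NonUnitalStarAlgHomClass.map_cfcₙ π _ a (hf := hf.continuousOn) (hf₀ := hf0)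
    (hφ := continuous_of_hom π) (ha := ha) (hφa := ha.map π)

theorem map_cut [PartialOrder A] [StarOrderedRing A] {B : Type u} [NonUnitalCStarAlgebra B]
    [PartialOrder B] [StarOrderedRing B] (π : A →⋆ₙₐ[ℂ] B) {a : A} (ha : IsSelfAdjoint a)
    {δ : ℝ} (hδ : 0 < δ) : π (cut a δ) = cut (π a) δ := by
  have hf0 : (fun s : ℝ => max (s - δ) 0) 0 = 0 := by simp [hδ.le]
  have hf : Continuous (fun s : ℝ => max (s - δ) 0) := by fun_prop
  exact NonUnitalStarAlgHomClass.map_cfcₙ π _ a (hf := hf.continuousOn) (hf₀ := hf0)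
    (hφ := continuous_of_hom π) (ha := ha) (hφa := ha.map π)

end

theorem nowhere_scalar_of2 (hS : SpecSel.{v, u}) (hI : SpecImp.{u}) (hF : SpecFib.{u})
    (hL : SpecLoc2.{u, v}) (hE : SpecExt.{u, v})
    {X : Type v} [TopologicalSpace X] [LocallyCompactSpace X] [T2Space X] {B : X → Type u}
    [∀ t, NonUnitalCStarAlgebra (B t)] [∀ t, PartialOrder (B t)] [∀ t, StarOrderedRing (B t)]
    {A : Type u} [NonUnitalCStarAlgebra A] [PartialOrder A] [StarOrderedRing A]
    {π : ∀ t, A →⋆ₙₐ[ℂ] B t} (hX : ∀ K : Set X, IsCompact K → HasPropertyC K)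
    (h1 : ∀ t, Function.Surjective (π t))
    (h2 : ∀ (a : A) (r : ℝ), 0 ≤ r → (∀ t, ‖π t a‖ ≤ r) → ‖a‖ ≤ r)
    (h3 : ∀ (a : A) (r : ℝ), 0 < r → IsCompact {t | r ≤ ‖π t a‖})
    (h4 : ∀ f : C(X, ℝ), (∀ t, 0 ≤ f t ∧ f t ≤ 1) → ∀ a : A, ∃ b : A, ∀ t,
      π t b = (f t : ℂ) • π t a)
    (hB : ∀ t, PurelyInfinite (B t)) :
    ∀ a : A, 0 ≤ a → ∀ δ : ℝ, 0 < δ → ∃ d : A, IsSelfAdjoint d ∧ d ∈ Her a ∧
      ∀ P : Submodule ℂ A, IsClosedIdeal P → cut a δ ∉ P → ∀ l : ℝ, d * a - l • a ∉ P := by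
  intro a ha δ hδ
  have hsa : IsSelfAdjoint a := IsSelfAdjoint.of_nonneg ha
  set K : Set X := {t | δ ≤ ‖π t a‖} with hK
  have hKc : IsCompact K := h3 a δ hδ
  haveI : CompactSpace K := isCompact_iff_compactSpace.1 hKc
  have husc : ∀ (x : A) (r : ℝ), 0 < r → IsOpen {t | ‖π t x‖ < r} := by
    intro x r hr
    have := (h3 x r hr).isClosed.isOpen_compl
    convert this using 1
    ext t
    simp
  set G : Set (K × herS a) := {q | ∃ (n : ℕ) (w w' : Fin n → A) (κ : ℝ),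
    Cert (π q.1 a) δ (π q.1 (q.2 : A)) (‖(q.2 : A)‖ + 1) κ (fun i => π q.1 (w i))
      (fun i => π q.1 (w' i))} with hG
  have hGo : IsOpen G := by
    rw [isOpen_iff_mem_nhds]
    rintro ⟨t0, d0⟩ ⟨n, w, w', κ, hκ, hc1, hc2⟩
    set x : A := ∑ i, (star (w i) * (a * a) * w i - star (w' i) * (a * a) * w' i) with hx
    set y : A → A := fun d =>
      ∑ i, (star (w i) * (a * d * a) * w i - star (w' i) * (a * d * a) * w' i) with hy
    have ex : ∀ t : X, π t x = ∑ i, (star (π t (w i)) * (π t a * π t a) * π t (w i) -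
        star (π t (w' i)) * (π t a * π t a) * π t (w' i)) := by
      intro t
      simp only [hx, map_sum, map_sub, map_mul, map_star]
    have ey : ∀ (t : X) (d : A), π t (y d) = ∑ i, (star (π t (w i)) *
        (π t a * π t d * π t a) * π t (w i) -
        star (π t (w' i)) * (π t a * π t d * π t a) * π t (w' i)) := by
      intro t d
      simp only [hy, map_sum, map_sub, map_mul, map_star]
    have hyc : Continuous y := by
      simp only [hy]
      fun_prop
    rw [← ex] at hc1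
    rw [← ey, ← map_ramp (π t0) hsa, ← map_real_smul, ← map_sub] at hc2
    set c : A := (4 * κ) • ramp δ a with hc
    obtain ⟨r, hr1, hr2⟩ := exists_between hc2
    have hd0 : 0 < ‖(d0 : A)‖ + 1 := by positivity
    have hc1' : ‖π t0 x‖ < κ / (‖(d0 : A)‖ + 1) := by
      rw [lt_div_iff₀ hd0, mul_comm]; exact hc1
    obtain ⟨s, hs1, hs2⟩ := exists_between hc1'
    have hs0 : 0 < s := (norm_nonneg _).trans_lt hs1
    have hr0 : 0 < r := (norm_nonneg _).trans_lt hr1
    have hU : {t : K | ‖π t x‖ < s ∧ ‖π t (y d0 - c)‖ < r} ∈ nhds t0 := by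
      have o1 : IsOpen {t : K | ‖π t x‖ < s} := (husc x s hs0).preimage continuous_subtype_val
      have o2 : IsOpen {t : K | ‖π t (y d0 - c)‖ < r} :=
        (husc _ r hr0).preimage continuous_subtype_val
      exact (o1.inter o2).mem_nhds ⟨hs1, hr1⟩
    have hV : {d : herS a | (‖(d : A)‖ + 1) * s < κ ∧ ‖y d - y d0‖ < κ - r} ∈ nhds d0 := by
      have o1 : IsOpen {d : herS a | (‖(d : A)‖ + 1) * s < κ} :=
        isOpen_lt (by fun_prop) continuous_const
      have o2 : IsOpen {d : herS a | ‖y d - y d0‖ < κ - r} :=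
        isOpen_lt (((hyc.comp continuous_subtype_val).sub continuous_const).norm)
          continuous_const
      refine (o1.inter o2).mem_nhds ⟨?_, ?_⟩
      · show (‖(d0 : A)‖ + 1) * s < κ
        rw [lt_div_iff₀ hd0] at hs2
        linarith
      · show ‖y d0 - y d0‖ < κ - r
        rw [sub_self, norm_zero]
        linarith
    refine Filter.mem_of_superset (prod_mem_nhds hU hV) ?_
    rintro ⟨t, d⟩ ⟨⟨ht1, ht2⟩, hd1, hd2⟩
    refine ⟨n, w, w', κ, hκ, ?_, ?_⟩
    · show (‖(d : A)‖ + 1) * ‖∑ i, (star (π t (w i)) * (π t a * π t a) * π t (w i) -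
        star (π t (w' i)) * (π t a * π t a) * π t (w' i))‖ < κ
      rw [← ex]
      have : (‖(d : A)‖ + 1) * ‖π t x‖ ≤ (‖(d : A)‖ + 1) * s := by gcongr
      exact this.trans_lt hd1
    · show ‖∑ i, (star (π t (w i)) * (π t a * π t (d : A) * π t a) * π t (w i) -
        star (π t (w' i)) * (π t a * π t (d : A) * π t a) * π t (w' i)) -
        (4 * κ) • ramp δ (π t a)‖ < κ
      rw [← ey, ← map_ramp (π t) hsa, ← map_real_smul, ← map_sub]
      have e1 : y (d : A) - c = (y d - y d0) + (y d0 - c) := by abel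
      rw [← hc, e1, map_add]
      have e2 : ‖π t (y (d : A) - y d0)‖ ≤ ‖y (d : A) - y d0‖ :=
        NonUnitalStarAlgHom.norm_apply_le (π t) _
      refine (norm_add_le _ _).trans_lt ?_
      linarith
  obtain ⟨F, hFG⟩ := hS K (hX K hKc) (herS a) G hGo fun t C hC ρ hρ => by
    obtain ⟨z, hz1, hz2⟩ := hF A (B t) (π t) (h1 t) (hB t) a ha δ hδ C hC ρ hρ
    exact ⟨z, hz1, fun b hb => ⟨(hz2 b hb).1, (hz2 b hb).2⟩⟩
  obtain ⟨d, hd, hdF⟩ := hE X B A π h1 h2 h3 h4 a K hsa hKc F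
  refine ⟨d, (her_of_herS hd).2, (her_of_herS hd).1, fun P hP hc l hmem => ?_⟩
  have hnot : ¬ ∀ t, ∀ ε : ℝ, 0 < ε → ∃ p ∈ P, ‖π t (cut a δ - p)‖ < ε :=
    fun h => hc (hL X B A π h1 h2 h3 h4 P hP _ h)
  push Not at hnot
  obtain ⟨t, ε, hε, hp⟩ := hnot
  set J : Submodule ℂ (B t) := (P.map (π t : A →ₗ[ℂ] B t)).topologicalClosure with hJ
  have hJc : IsClosedIdeal J := isClosedIdeal_map (h1 t) hP
  have hcJ : cut (π t a) δ ∉ J := by
    intro hmem2
    rw [← map_cut (π t) hsa hδ] at hmem2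
    obtain ⟨_, ⟨p, hp1, rfl⟩, hp3⟩ := Metric.mem_closure_iff.1 hmem2 ε hε
    have h4 := hp p hp1
    rw [map_sub] at h4
    rw [dist_eq_norm] at hp3
    exact absurd hp3 (not_lt.2 h4)
  have htK : t ∈ K := by
    by_contra hlt
    refine hcJ ?_
    rw [← map_cut (π t) hsa hδ, map_cut_eq_zero ha hδ (not_le.1 hlt)]
    exact J.zero_mem
  obtain ⟨n, w, w', κ, hcert⟩ := hFG ⟨t, htK⟩
  have hsF : IsSelfAdjoint ((F ⟨t, htK⟩ : herS a) : A) := (her_of_herS (F ⟨t, htK⟩).2).2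
  have hconc := hI (B t) (π t a) (map_nonneg' ha) δ hδ (π t ((F ⟨t, htK⟩ : herS a) : A))
    (‖((F ⟨t, htK⟩ : herS a) : A)‖ + 1) κ n _ _ (hsF.map (π t))
    (by
      have := NonUnitalStarAlgHom.norm_apply_le (π t) ((F ⟨t, htK⟩ : herS a) : A)
      linarith) hcert J hJc hcJ l
  refine hconc ?_
  have e1 : π t ((F ⟨t, htK⟩ : herS a) : A) * π t a - l • π t a = π t (d * a - l • a) := by
    rw [map_sub, map_mul, map_real_smul]
    have := hdF ⟨t, htK⟩
    simp only at this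
    rw [this]
  rw [e1]
  exact Submodule.le_topologicalClosure _ ⟨_, hmem, rfl⟩

end Vale.Agent.P133.R2.H307
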