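import Vale.Agent.P133.R2.H307.Defs
import Vale.Agent.P133F.Defs
import Mathlib.Analysis.Normed.Module.FiniteDimension

/-!
P133 (helper307): literal rows for the theorem on property C.
-/

namespace Vale.Agent.P133.R2.H307

open Vale.Agent.P133.H832 Vale.Agent.P133.Statement Vale.Agent.P133F

universe u v w

/-- Row T (topology, Mathlib only): selection over spaces with property C. -/
def SpecTop : Prop :=
  ∀ (X : Type v) [TopologicalSpace X] [CompactSpace X] [T2Space X], HasPropertyC X →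
  ∀ (K : Set X), IsClosed K →
  ∀ (V : Type w) [NormedAddCommGroup V] [NormedSpace ℝ V] (N : X → V → ℝ) (C : ℝ), 0 ≤ C →
    (∀ t y z, N t (y + z) ≤ N t y + N t z) →
    (∀ t (c : ℝ) y, N t (c • y) = |c| * N t y) →
    (∀ t y, N t y ≤ C * ‖y‖) →
    (∀ y (r : ℝ), IsClosed {t | t ∈ K ∧ N t y ≤ r}) →
    (∀ t ∈ K, ∀ S : Submodule ℝ V, FiniteDimensional ℝ S → ∃ y, ∀ s ∈ S, 0 < N t (y + s)) →
    ∃ (m : ℕ) (φ : Fin m → C(X, ℝ)) (y : Fin m → V),
      (∀ i t, 0 ≤ φ i t ∧ φ i t ≤ 1) ∧ ∀ t ∈ K, 0 < N t (∑ i, φ i t • y i)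

/-- Row I: hereditary subalgebras of a simple weakly purely infinite algebra are infinite
dimensional, in the form needed. -/
def SpecInf : Prop :=
  ∀ (B : Type u) [NonUnitalCStarAlgebra B] [PartialOrder B] [StarOrderedRing B],
    WeaklyPurelyInfinite B → IsSimpleOrZero B → ∀ a : B, 0 ≤ a → a ≠ 0 →
    ∀ S : Submodule ℝ B, FiniteDimensional ℝ S → ∃ y : B, IsSelfAdjoint y ∧ a * y * a * a ∉ S

/-- Row L: membership in a closed ideal is a local property. -/
def SpecLoc : Prop :=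
  ∀ (X : Type v) [TopologicalSpace X] [CompactSpace X] [T2Space X] (B : X → Type u)
    [∀ t, NonUnitalCStarAlgebra (B t)] (A : Type u) [NonUnitalCStarAlgebra A]
    (π : ∀ t, A →⋆ₙₐ[ℂ] B t), IsField π → ∀ P : Submodule ℂ A, IsClosedIdeal P → ∀ c : A,
    (∀ t, ∀ ε : ℝ, 0 < ε → ∃ p ∈ P, ‖π t (c - p)‖ < ε) → c ∈ P

end Vale.Agent.P133.R2.H307
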