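import Vale.Agent.P133.R2.H307.Defs
import Vale.Agent.P133.R2.H28.Defs
import Vale.Agent.P133.H832.FieldDefs
import Vale.Agent.P133F.Defs
import Mathlib.Algebra.Star.SelfAdjoint
import Mathlib.Topology.ContinuousMap.Bounded.Normed

/-!
P133 (helper307): literal rows for the general theorem on fields over spaces with property C
(upper semicontinuous fields, arbitrary fibres).
-/

open scoped ComplexOrder

namespace Vale.Agent.P133.R2.H307

open Vale.Agent.P133.H832 Vale.Agent.P133.Statement Vale.Agent.P133F Vale.Agent.P133.R2.H28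

universe u v w

/-- Row S (topology, Mathlib only): selection for an open relation over a compact space with
property C. -/
def SpecSel : Prop :=
  ∀ (K : Type v) [TopologicalSpace K] [CompactSpace K] [T2Space K], HasPropertyC K →
  ∀ (V : Type w) [NormedAddCommGroup V] [NormedSpace ℝ V] (G : Set (K × V)), IsOpen G →
    (∀ (t : K) (C : Set V), IsCompact C → ∀ ρ : ℝ, 0 < ρ →
      ∃ z : V → V, ContinuousOn z C ∧ ∀ b ∈ C, ‖z b‖ ≤ ρ ∧ (t, b + z b) ∈ G) →
    ∃ F : C(K, V), ∀ t, (t, F t) ∈ G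

section

variable {D : Type u} [NonUnitalCStarAlgebra D]

/-- the self-adjoint part of the hereditary subalgebra `Her a` -/
noncomputable def herS (a : D) : Submodule ℝ D :=
  (LinearMap.range ((LinearMap.mulLeft ℝ a).comp (LinearMap.mulRight ℝ a))).topologicalClosure ⊓
    selfAdjoint.submodule ℝ D

/-- the function of `a` which is `0` up to `δ / 2` and `1` from `δ` on, linear in between -/
noncomputable def ramp [PartialOrder D] [StarOrderedRing D] (δ : ℝ) (a : D) : D :=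
  cfcₙ (fun s : ℝ => min (max (2 * s / δ - 1) 0) 1) a

/-- a finite certificate for `d` to be nowhere scalar on `Her a` -/
def Cert [PartialOrder D] [StarOrderedRing D] (a : D) (δ : ℝ) (d : D) (M κ : ℝ) {n : ℕ}
    (w w' : Fin n → D) : Prop :=
  0 < κ ∧ M * ‖∑ i, (star (w i) * (a * a) * w i - star (w' i) * (a * a) * w' i)‖ < κ ∧
    ‖∑ i, (star (w i) * (a * d * a) * w i - star (w' i) * (a * d * a) * w' i) -
      (4 * κ) • ramp δ a‖ < κ

end

/-- Row I2: what a certificate proves. -/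
def SpecImp : Prop :=
  ∀ (D : Type u) [NonUnitalCStarAlgebra D] [PartialOrder D] [StarOrderedRing D] (a : D), 0 ≤ a →
    ∀ δ : ℝ, 0 < δ → ∀ (d : D) (M κ : ℝ) (n : ℕ) (w w' : Fin n → D), IsSelfAdjoint d →
    ‖d‖ + 1 ≤ M → Cert a δ d M κ w w' → ∀ J : Submodule ℂ D, IsClosedIdeal J → cut a δ ∉ J →
      ∀ l : ℝ, d * a - l • a ∉ J

/-- Row D: in a purely infinite algebra the elements with a certificate are dense. -/
def SpecDense : Prop :=
  ∀ (D : Type u) [NonUnitalCStarAlgebra D] [PartialOrder D] [StarOrderedRing D],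
    PurelyInfinite D → ∀ a : D, 0 ≤ a → ∀ δ : ℝ, 0 < δ → ∀ d ∈ herS a, ∀ ρ : ℝ, 0 < ρ →
    ∀ M : ℝ, 0 < M → ∃ z ∈ herS a, ‖z‖ ≤ ρ ∧
      ∃ (n : ℕ) (w w' : Fin n → D) (κ : ℝ), Cert a δ (d + z) M κ w w'

/-- Row F: the same for compact families of elements of `A`, over a purely infinite quotient. -/
def SpecFib : Prop :=
  ∀ (A : Type u) [NonUnitalCStarAlgebra A] [PartialOrder A] [StarOrderedRing A] (B : Type u)
    [NonUnitalCStarAlgebra B] [PartialOrder B] [StarOrderedRing B] (π : A →⋆ₙₐ[ℂ] B),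
    Function.Surjective π → PurelyInfinite B → ∀ a : A, 0 ≤ a → ∀ δ : ℝ, 0 < δ →
    ∀ C : Set (herS a), IsCompact C → ∀ ρ : ℝ, 0 < ρ → ∃ z : herS a → herS a,
      ContinuousOn z C ∧ ∀ b ∈ C, ‖z b‖ ≤ ρ ∧ ∃ (n : ℕ) (w w' : Fin n → A) (κ : ℝ),
        Cert (π a) δ (π ((b + z b : herS a) : A)) (‖((b + z b : herS a) : A)‖ + 1) κ
          (fun i => π (w i)) (fun i => π (w' i))

/-- Row L2: membership in a closed ideal is a local property, for upper semicontinuous fields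
over locally compact spaces. -/
def SpecLoc2 : Prop :=
  ∀ (X : Type v) [TopologicalSpace X] [LocallyCompactSpace X] [T2Space X] (B : X → Type u)
    [∀ t, NonUnitalCStarAlgebra (B t)] (A : Type u) [NonUnitalCStarAlgebra A]
    (π : ∀ t, A →⋆ₙₐ[ℂ] B t), (∀ t, Function.Surjective (π t)) →
    (∀ (a : A) (r : ℝ), 0 ≤ r → (∀ t, ‖π t a‖ ≤ r) → ‖a‖ ≤ r) →
    (∀ (a : A) (r : ℝ), 0 < r → IsCompact {t | r ≤ ‖π t a‖}) →
    (∀ f : C(X, ℝ), (∀ t, 0 ≤ f t ∧ f t ≤ 1) → ∀ a : A, ∃ b : A, ∀ t, π t b = (f t : ℂ) • π t a) →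
    ∀ P : Submodule ℂ A, IsClosedIdeal P → ∀ c : A,
    (∀ t, ∀ ε : ℝ, 0 < ε → ∃ p ∈ P, ‖π t (c - p)‖ < ε) → c ∈ P

/-- Row E: continuous functions on a compact subset with values in `herS a` extend to elements
of the section algebra. -/
def SpecExt : Prop :=
  ∀ (X : Type v) [TopologicalSpace X] [LocallyCompactSpace X] [T2Space X] (B : X → Type u)
    [∀ t, NonUnitalCStarAlgebra (B t)] (A : Type u) [NonUnitalCStarAlgebra A]
    (π : ∀ t, A →⋆ₙₐ[ℂ] B t), (∀ t, Function.Surjective (π t)) →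
    (∀ (a : A) (r : ℝ), 0 ≤ r → (∀ t, ‖π t a‖ ≤ r) → ‖a‖ ≤ r) →
    (∀ (a : A) (r : ℝ), 0 < r → IsCompact {t | r ≤ ‖π t a‖}) →
    (∀ f : C(X, ℝ), (∀ t, 0 ≤ f t ∧ f t ≤ 1) → ∀ a : A, ∃ b : A, ∀ t, π t b = (f t : ℂ) • π t a) →
    ∀ (a : A) (K : Set X), IsSelfAdjoint a → IsCompact K → ∀ F : C(K, herS a),
      ∃ d ∈ herS a, ∀ t : K, π t d = π t (F t : A)

end Vale.Agent.P133.R2.H307
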