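import Vale.Agent.P133.R2.H307.Spec2
import Vale.Agent.P133.R2.H28.Iter

/-!
P133 (helper307): literal rows for `A purely infinite if and only if all fibres are` over spaces
with property C (no weak pure infiniteness of `A` assumed).
-/

open scoped ComplexOrder

namespace Vale.Agent.P133.R2.H307

open Vale.Agent.P133.H832 Vale.Agent.P133.Statement Vale.Agent.P133F Vale.Agent.P133.R2.H28

universe u v

/-- Row G1: an infinite sequence of orthogonal elements (iterate `TwoOrth`, as in `H28.iter`). -/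
def SpecSeq : Prop :=
  ∀ (A : Type u) [NonUnitalCStarAlgebra A] [PartialOrder A] [StarOrderedRing A], TwoOrth A →
    ∀ a : A, 0 ≤ a → ∀ δ : ℝ, 0 < δ → ∃ b : ℕ → A, (∀ n, 0 ≤ b n) ∧
      (∀ m n, m ≠ n → b m * b n = 0) ∧ (∀ n, b n ∈ Her a) ∧ ∀ n, InId (b n) (R2.H28.cut a δ)

/-- Row G2: two copies of `c` below `b`. -/
def SpecBelow : Prop :=
  ∀ (B : Type u) [NonUnitalCStarAlgebra B] [PartialOrder B] [StarOrderedRing B],
    PurelyInfinite B → ∀ b c : B, 0 ≤ b → 0 ≤ c → InId b c → ∀ ρ : ℝ, 0 < ρ →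
    ∃ x y : B, ‖star x * b * x - c‖ < ρ ∧ ‖star y * b * y - c‖ < ρ ∧ ‖star x * b * y‖ < ρ

/-- Row G: gluing over a space whose compact subsets have property C. -/
def SpecGlue : Prop :=
  ∀ (X : Type v) [TopologicalSpace X] [LocallyCompactSpace X] [T2Space X] (B : X → Type u)
    [∀ t, NonUnitalCStarAlgebra (B t)] [∀ t, PartialOrder (B t)] [∀ t, StarOrderedRing (B t)]
    (A : Type u) [NonUnitalCStarAlgebra A] [PartialOrder A] [StarOrderedRing A]
    (π : ∀ t, A →⋆ₙₐ[ℂ] B t), (∀ K : Set X, IsCompact K → HasPropertyC K) →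
    (∀ t, Function.Surjective (π t)) →
    (∀ (a : A) (r : ℝ), 0 ≤ r → (∀ t, ‖π t a‖ ≤ r) → ‖a‖ ≤ r) →
    (∀ (a : A) (r : ℝ), 0 < r → IsCompact {t | r ≤ ‖π t a‖}) →
    (∀ f : C(X, ℝ), (∀ t, 0 ≤ f t ∧ f t ≤ 1) → ∀ a : A, ∃ b : A, ∀ t, π t b = (f t : ℂ) • π t a) →
    (∀ t, PurelyInfinite (B t)) → TwoOrth A → EltPI A

end Vale.Agent.P133.R2.H307
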